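import Mathlib

/-!
# Markov type (Ball 1992): definitions

A finite stationary reversible Markov chain is given by a probability vector `π` on a finite
state space `S` and a stochastic matrix `P` with `π i * P i j = π j * P j i`.  For such a chain
`(Z_t)` started from `π`, a map `f : S → X` and a time `t`,
`E ‖f (Z_t) - f (Z_0)‖ ^ p = ∑ i, ∑ j, π i * (P ^ t) i j * ‖f i - f j‖ ^ p`.
-/

namespace Vale.Agent.Lib.P125

/-- `π`, `P` describe a stationary reversible Markov chain on the finite state space `S`: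
`π` is a probability vector, `P` is a stochastic matrix, and detailed balance holds. -/
def IsReversibleChain {S : Type} [Fintype S] (π : S → ℝ) (P : Matrix S S ℝ) : Prop :=
  (∀ i, 0 ≤ π i) ∧ (∑ i, π i = 1) ∧ (∀ i j, 0 ≤ P i j) ∧ (∀ i, ∑ j, P i j = 1) ∧
    (∀ i j, π i * P i j = π j * P j i)

/-- The normed space `X` has Markov type `p` with constant `K`: for every finite stationary
reversible chain `(π, P)`, every `f : S → X` and every time `t ≥ 1`,
`E ‖f (Z_t) - f (Z_0)‖ ^ p ≤ K ^ p * t * E ‖f (Z_1) - f (Z_0)‖ ^ p`. -/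
def HasMarkovType (X : Type*) [NormedAddCommGroup X] (p K : ℝ) : Prop :=
  ∀ (S : Type) [Fintype S] [DecidableEq S] (π : S → ℝ) (P : Matrix S S ℝ),
    IsReversibleChain π P → ∀ (f : S → X) (t : ℕ), 1 ≤ t →
      ∑ i, ∑ j, π i * (P ^ t) i j * ‖f i - f j‖ ^ p ≤
        K ^ p * (t : ℝ) * ∑ i, ∑ j, π i * P i j * ‖f i - f j‖ ^ p

end Vale.Agent.Lib.P125
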