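import Vale.Agent.Lib.P125.Defs

/-!
# The star chain with lazy leaves, run for a long time

State space `Option ι`: `none` is the centre, `some i` are the leaves.  From the centre the
chain jumps to a uniformly random leaf; from a leaf it jumps to the centre with probability `q`
and stays put with probability `1 - q`.
-/

namespace Vale.Agent.Lib.P125

open Finset

/-- stationary distribution of the lazy star chain -/
noncomputable def restPi (ι : Type) [Fintype ι] (q : ℝ) : Option ι → ℝ :=
  fun a => match a with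
    | none => q / (1 + q)
    | some _ => 1 / ((1 + q) * (Fintype.card ι : ℝ))

/-- transition matrix of the lazy star chain -/
noncomputable def restP (ι : Type) [Fintype ι] [DecidableEq ι] (q : ℝ) :
    Matrix (Option ι) (Option ι) ℝ :=
  fun a b => match a, b with
    | none, none => 0
    | none, some _ => 1 / (Fintype.card ι : ℝ)
    | some _, none => q
    | some i, some j => if i = j then 1 - q else 0

theorem rest_chain_reversible (ι : Type) [Fintype ι] [DecidableEq ι] [Nonempty ι] {q : ℝ}
    (hq : 0 < q) (hq1 : q < 1) : IsReversibleChain (restPi ι q) (restP ι q) := by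
  have hm : (0:ℝ) < Fintype.card ι := by exact_mod_cast Fintype.card_pos
  refine ⟨?_, ?_, ?_, ?_, ?_⟩
  · intro i
    cases i <;> simp only [restPi] <;> positivity
  · simp only [Fintype.sum_option, restPi, sum_const, card_univ, nsmul_eq_mul]
    field_simp
    ring
  · intro i j
    cases i <;> cases j <;> simp only [restP]
    · exact le_rfl
    · positivity
    · exact hq.le
    · split_ifs
      · linarith
      · exact le_rfl
  · intro i
    cases i
    · simp only [Fintype.sum_option, restP, sum_const, card_univ, nsmul_eq_mul]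
      field_simp
      ring
    · simp only [Fintype.sum_option, restP, sum_ite_eq, mem_univ, if_true]
      ring
  · intro i j
    cases i <;> cases j <;> simp only [restPi, restP]
    · field_simp
    · field_simp
    · rename_i a b
      by_cases h : a = b
      · subst h; rfl
      · have h' : ¬ b = a := fun e => h e.symm
        simp [h, h']

/-- powers of an entrywise nonnegative matrix are entrywise nonnegative -/
theorem pow_entry_nonneg {S : Type} [Fintype S] [DecidableEq S] (P : Matrix S S ℝ)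
    (hP : ∀ i j, 0 ≤ P i j) (t : ℕ) : ∀ i j, 0 ≤ (P ^ t) i j := by
  induction t with
  | zero =>
    intro i j
    rw [pow_zero, Matrix.one_apply]
    split_ifs <;> norm_num
  | succ t ih =>
    intro i j
    rw [pow_succ, Matrix.mul_apply]
    exact Finset.sum_nonneg (fun k _ => mul_nonneg (ih i k) (hP k j))

section bounds

variable (ι : Type) [Fintype ι] [DecidableEq ι] [Nonempty ι] {q : ℝ}

theorem restP_nonneg (hq : 0 < q) (hq1 : q < 1) : ∀ a b, 0 ≤ restP ι q a b :=
  (rest_chain_reversible ι hq hq1).2.2.1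

/-- a single term of the matrix product bounds the entry of the next power from below -/
theorem pow_succ_ge_term (hq : 0 < q) (hq1 : q < 1) (t : ℕ) (a k b : Option ι) :
    (restP ι q ^ t) a k * restP ι q k b ≤ (restP ι q ^ (t + 1)) a b := by
  rw [pow_succ, Matrix.mul_apply]
  exact Finset.single_le_sum (f := fun k => (restP ι q ^ t) a k * restP ι q k b)
    (fun k _ => mul_nonneg (pow_entry_nonneg _ (restP_nonneg ι hq hq1) t a k)
      (restP_nonneg ι hq hq1 k b)) (mem_univ k)

/-- two terms of the matrix product bound the entry of the next power from below -/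
theorem pow_succ_ge_two_terms (hq : 0 < q) (hq1 : q < 1) (t : ℕ) (a k l b : Option ι)
    (hkl : k ≠ l) :
    (restP ι q ^ t) a k * restP ι q k b + (restP ι q ^ t) a l * restP ι q l b
      ≤ (restP ι q ^ (t + 1)) a b := by
  rw [pow_succ, Matrix.mul_apply]
  have h := Finset.sum_le_sum_of_subset_of_nonneg
    (f := fun k => (restP ι q ^ t) a k * restP ι q k b) (Finset.subset_univ {k, l})
    (fun x _ _ => mul_nonneg (pow_entry_nonneg _ (restP_nonneg ι hq hq1) t a x)
      (restP_nonneg ι hq hq1 x b))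
  rw [Finset.sum_pair hkl] at h
  exact h

/-- staying at a leaf for `t` steps -/
theorem stay_bound (hq : 0 < q) (hq1 : q < 1) (i : ι) (t : ℕ) :
    (1 - q) ^ t ≤ (restP ι q ^ t) (some i) (some i) := by
  induction t with
  | zero => simp
  | succ t ih =>
    have h := pow_succ_ge_term ι hq hq1 t (some i) (some i) (some i)
    have e : restP ι q (some i) (some i) = 1 - q := by simp [restP]
    rw [e] at h
    have h1 : (1 - q) ^ t * (1 - q) ≤ (restP ι q ^ t) (some i) (some i) * (1 - q) :=
      mul_le_mul_of_nonneg_right ih (by linarith)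
    rw [pow_succ]
    linarith

/-- staying at a leaf for `t` steps and then jumping to the centre -/
theorem to_centre_bound (hq : 0 < q) (hq1 : q < 1) (i : ι) (t : ℕ) :
    (1 - q) ^ t * q ≤ (restP ι q ^ (t + 1)) (some i) none := by
  have h := pow_succ_ge_term ι hq hq1 t (some i) (some i) none
  have e : restP ι q (some i) none = q := by simp [restP]
  rw [e] at h
  have h1 := mul_le_mul_of_nonneg_right (stay_bound ι hq hq1 i t) hq.le
  linarith

/-- one excursion through the centre within `t + 2` steps -/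
theorem excursion_bound (hq : 0 < q) (hq1 : q < 1) (i j : ι) (t : ℕ) :
    ((t : ℝ) + 1) * q * (1 - q) ^ t / (Fintype.card ι : ℝ)
      ≤ (restP ι q ^ (t + 2)) (some i) (some j) := by
  have hm : (0:ℝ) < Fintype.card ι := by exact_mod_cast Fintype.card_pos
  have e1 : restP ι q (some j) (some j) = 1 - q := by simp [restP]
  have e2 : restP ι q none (some j) = 1 / (Fintype.card ι : ℝ) := by simp [restP]
  induction t with
  | zero =>
    have h := pow_succ_ge_term ι hq hq1 1 (some i) none (some j)
    have e3 : (restP ι q ^ 1) (some i) none = q := by simp [restP]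
    rw [e2, e3] at h
    simp only [Nat.cast_zero, zero_add, pow_zero, mul_one, one_mul]
    have : q / (Fintype.card ι : ℝ) = q * (1 / (Fintype.card ι : ℝ)) := by ring
    rw [this]
    exact h
  | succ t ih =>
    have h := pow_succ_ge_two_terms ι hq hq1 (t + 2) (some i) (some j) none (some j)
      (by simp)
    rw [e1, e2] at h
    have hc := to_centre_bound ι hq hq1 i (t + 1)
    have h1 : ((t : ℝ) + 1) * q * (1 - q) ^ t / (Fintype.card ι : ℝ) * (1 - q)
        ≤ (restP ι q ^ (t + 2)) (some i) (some j) * (1 - q) :=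
      mul_le_mul_of_nonneg_right ih (by linarith)
    have h2 : (1 - q) ^ (t + 1) * q * (1 / (Fintype.card ι : ℝ))
        ≤ (restP ι q ^ (t + 1 + 1)) (some i) none * (1 / (Fintype.card ι : ℝ)) :=
      mul_le_mul_of_nonneg_right hc (by positivity)
    have e : (((t + 1 : ℕ) : ℝ) + 1) * q * (1 - q) ^ (t + 1) / (Fintype.card ι : ℝ)
        = ((t : ℝ) + 1) * q * (1 - q) ^ t / (Fintype.card ι : ℝ) * (1 - q)
          + (1 - q) ^ (t + 1) * q * (1 / (Fintype.card ι : ℝ)) := by
      push_cast
      field_simp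
      ring
    rw [e]
    have e4 : t + 1 + 2 = t + 2 + 1 := by ring
    rw [e4]
    have e5 : t + 1 + 1 = t + 2 := by ring
    rw [e5] at h2
    linarith

end bounds

variable {X : Type*} [NormedAddCommGroup X]

/-- the map sending the centre to `0` and the leaf `i` to `v i` -/
def restMap {ι : Type} (v : ι → X) : Option ι → X :=
  fun a => match a with
    | none => 0
    | some i => v i

/-- The Markov type inequality for the lazy star chain at time `t + 2`, after discarding all
but the single-excursion paths. -/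
theorem star_long {p K : ℝ} (hp : 0 < p) (hX : HasMarkovType X p K) (ι : Type) [Fintype ι]
    [DecidableEq ι] [Nonempty ι] (v : ι → X) (t : ℕ) {q : ℝ} (hq : 0 < q) (hq1 : q < 1) :
    ((t : ℝ) + 1) * (1 - q) ^ t * (1 / (Fintype.card ι : ℝ)) * ∑ i, ∑ j, ‖v i - v j‖ ^ p
      ≤ 2 * K ^ p * ((t : ℝ) + 2) * ∑ i, ‖v i‖ ^ p := by
  have hm : (0:ℝ) < Fintype.card ι := by exact_mod_cast Fintype.card_pos
  have hrev := rest_chain_reversible ι hq hq1
  have h := hX (Option ι) (restPi ι q) (restP ι q) hrev (restMap v) (t + 2) (by omega)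
  have h0 : (0:ℝ) ^ p = 0 := Real.zero_rpow hp.ne'
  have hPnn := pow_entry_nonneg _ (restP_nonneg ι hq hq1) (t + 2)
  -- the right-hand side
  have hR : ∑ i, ∑ j, restPi ι q i * restP ι q i j * ‖restMap v i - restMap v j‖ ^ p
      = 2 * q / ((1 + q) * (Fintype.card ι : ℝ)) * ∑ i, ‖v i‖ ^ p := by
    simp only [Fintype.sum_option, restPi, restP, restMap, norm_zero, h0, zero_sub,
      norm_neg, sub_zero, mul_zero, zero_add]
    have e5 : ∀ x : ι, (∑ x_1 : ι, (1 / ((1 + q) * (Fintype.card ι : ℝ)) *
        if x = x_1 then 1 - q else 0) * ‖v x - v x_1‖ ^ p) = 0 := by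
      intro x
      apply Finset.sum_eq_zero
      intro y _
      by_cases hxy : x = y
      · subst hxy; simp [h0]
      · simp [hxy]
    simp only [e5, add_zero, ← Finset.mul_sum]
    field_simp
    ring
  -- the left-hand side
  have hL : 1 / ((1 + q) * (Fintype.card ι : ℝ)) *
        (((t : ℝ) + 1) * q * (1 - q) ^ t / (Fintype.card ι : ℝ)) * ∑ i, ∑ j, ‖v i - v j‖ ^ p
      ≤ ∑ i, ∑ j, restPi ι q i * (restP ι q ^ (t + 2)) i j * ‖restMap v i - restMap v j‖ ^ p := by
    rw [Fintype.sum_option]
    have hnone : 0 ≤ ∑ j, restPi ι q none * (restP ι q ^ (t + 2)) none j *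
        ‖restMap v none - restMap v j‖ ^ p := by
      apply Finset.sum_nonneg
      intro j _
      exact mul_nonneg (mul_nonneg (hrev.1 none) (hPnn none j))
        (Real.rpow_nonneg (norm_nonneg _) _)
    have hsome : 1 / ((1 + q) * (Fintype.card ι : ℝ)) *
          (((t : ℝ) + 1) * q * (1 - q) ^ t / (Fintype.card ι : ℝ)) * ∑ i, ∑ j, ‖v i - v j‖ ^ p
        ≤ ∑ i : ι, ∑ j, restPi ι q (some i) * (restP ι q ^ (t + 2)) (some i) j *
            ‖restMap v (some i) - restMap v j‖ ^ p := by
      rw [Finset.mul_sum]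
      apply Finset.sum_le_sum
      intro i _
      rw [Fintype.sum_option, Finset.mul_sum]
      have hnn : 0 ≤ restPi ι q (some i) * (restP ι q ^ (t + 2)) (some i) none *
          ‖restMap v (some i) - restMap v none‖ ^ p :=
        mul_nonneg (mul_nonneg (hrev.1 (some i)) (hPnn (some i) none))
          (Real.rpow_nonneg (norm_nonneg _) _)
      have hsum : ∑ j : ι, 1 / ((1 + q) * (Fintype.card ι : ℝ)) *
            (((t : ℝ) + 1) * q * (1 - q) ^ t / (Fintype.card ι : ℝ)) * ‖v i - v j‖ ^ p
          ≤ ∑ j : ι, restPi ι q (some i) * (restP ι q ^ (t + 2)) (some i) (some j) *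
            ‖restMap v (some i) - restMap v (some j)‖ ^ p := by
        apply Finset.sum_le_sum
        intro j _
        have hb := excursion_bound ι hq hq1 i j t
        have hpi : restPi ι q (some i) = 1 / ((1 + q) * (Fintype.card ι : ℝ)) := rfl
        rw [hpi]
        have hn : 0 ≤ ‖v i - v j‖ ^ p := Real.rpow_nonneg (norm_nonneg _) _
        have hc : (0:ℝ) ≤ 1 / ((1 + q) * (Fintype.card ι : ℝ)) := by positivity
        simp only [restMap]
        exact mul_le_mul_of_nonneg_right (mul_le_mul_of_nonneg_left hb hc) hn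
      linarith
    linarith
  rw [hR] at h
  have hfin := le_trans hL h
  have hpos : 0 < (1 + q) * (Fintype.card ι : ℝ) / q := by positivity
  have := mul_le_mul_of_nonneg_left hfin hpos.le
  have eL : (1 + q) * (Fintype.card ι : ℝ) / q * (1 / ((1 + q) * (Fintype.card ι : ℝ)) *
        (((t : ℝ) + 1) * q * (1 - q) ^ t / (Fintype.card ι : ℝ)) * ∑ i, ∑ j, ‖v i - v j‖ ^ p)
      = ((t : ℝ) + 1) * (1 - q) ^ t * (1 / (Fintype.card ι : ℝ)) * ∑ i, ∑ j, ‖v i - v j‖ ^ p := by
    field_simp
  have eR : (1 + q) * (Fintype.card ι : ℝ) / q * (K ^ p * ((t + 2 : ℕ) : ℝ) *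
        (2 * q / ((1 + q) * (Fintype.card ι : ℝ)) * ∑ i, ‖v i‖ ^ p))
      = 2 * K ^ p * ((t : ℝ) + 2) * ∑ i, ‖v i‖ ^ p := by
    push_cast
    field_simp
  rw [eL, eR] at this
  exact this

/-- **The star inequality.** In a normed space of Markov type `p` with constant `K`, every
finite family of vectors satisfies
`(1 / m) * ∑ i, ∑ j, ‖v i - v j‖ ^ p ≤ 2 * K ^ p * ∑ i, ‖v i‖ ^ p`. -/
theorem star_sharp {p K : ℝ} (hp : 0 < p) (hX : HasMarkovType X p K) (ι : Type) [Fintype ι]
    [DecidableEq ι] [Nonempty ι] (v : ι → X) :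
    (1 / (Fintype.card ι : ℝ)) * ∑ i, ∑ j, ‖v i - v j‖ ^ p ≤ 2 * K ^ p * ∑ i, ‖v i‖ ^ p := by
  have hm : (0:ℝ) < Fintype.card ι := by exact_mod_cast Fintype.card_pos
  set A : ℝ := ∑ i, ‖v i‖ ^ p with hA
  set B : ℝ := ∑ i, ∑ j, ‖v i - v j‖ ^ p with hB
  have hB0 : 0 ≤ B := Finset.sum_nonneg (fun i _ => Finset.sum_nonneg
    (fun j _ => Real.rpow_nonneg (norm_nonneg _) _))
  have hBm : 0 ≤ (1 / (Fintype.card ι : ℝ)) * B := by positivity
  -- for every `t ≥ 1`: `t * (B / m) ≤ 2 K^p (t + 2) A`
  have key : ∀ t : ℕ, 1 ≤ t →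
      (t : ℝ) * ((1 / (Fintype.card ι : ℝ)) * B) ≤ 2 * K ^ p * ((t : ℝ) + 2) * A := by
    intro t ht
    have htpos : (0:ℝ) < t := by exact_mod_cast ht
    have hq : (0:ℝ) < 1 / ((t : ℝ) + 1) ^ 2 := by positivity
    have hq1 : 1 / ((t : ℝ) + 1) ^ 2 < 1 := by
      rw [div_lt_one (by positivity)]
      nlinarith
    have h := star_long hp hX ι v t hq hq1
    rw [← hB, ← hA] at h
    have hbern : 1 + (t : ℝ) * (-(1 / ((t : ℝ) + 1) ^ 2)) ≤ (1 + -(1 / ((t : ℝ) + 1) ^ 2)) ^ t :=
      one_add_mul_le_pow (by linarith) t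
    have e : (1 + -(1 / ((t : ℝ) + 1) ^ 2)) = 1 - 1 / ((t : ℝ) + 1) ^ 2 := by ring
    rw [e] at hbern
    have h2 : (t : ℝ) / ((t : ℝ) + 1) ≤ 1 + (t : ℝ) * (-(1 / ((t : ℝ) + 1) ^ 2)) := by
      rw [div_le_iff₀ (by positivity)]
      have : (1 + (t : ℝ) * (-(1 / ((t : ℝ) + 1) ^ 2))) * ((t : ℝ) + 1)
          = (t : ℝ) + 1 - t / ((t : ℝ) + 1) := by
        field_simp
        ring
      rw [this]
      have : (t : ℝ) / ((t : ℝ) + 1) ≤ 1 := by
        rw [div_le_one (by positivity)]
        linarith
      linarith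
    have h3 : (t : ℝ) ≤ ((t : ℝ) + 1) * (1 - 1 / ((t : ℝ) + 1) ^ 2) ^ t := by
      have : (t : ℝ) = ((t : ℝ) + 1) * ((t : ℝ) / ((t : ℝ) + 1)) := by
        field_simp
      calc (t : ℝ) = ((t : ℝ) + 1) * ((t : ℝ) / ((t : ℝ) + 1)) := this
        _ ≤ ((t : ℝ) + 1) * (1 - 1 / ((t : ℝ) + 1) ^ 2) ^ t := by
            apply mul_le_mul_of_nonneg_left (le_trans h2 hbern)
            positivity
    have h4 : (t : ℝ) * ((1 / (Fintype.card ι : ℝ)) * B)
        ≤ ((t : ℝ) + 1) * (1 - 1 / ((t : ℝ) + 1) ^ 2) ^ t * ((1 / (Fintype.card ι : ℝ)) * B) :=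
      mul_le_mul_of_nonneg_right h3 hBm
    linarith
  by_contra hcon
  push Not at hcon
  set c : ℝ := (1 / (Fintype.card ι : ℝ)) * B - 2 * K ^ p * A with hc
  have hcpos : 0 < c := by linarith
  obtain ⟨t, ht⟩ := exists_nat_gt (max (4 * K ^ p * A / c) 1)
  have ht1 : (1:ℝ) < t := lt_of_le_of_lt (le_max_right _ _) ht
  have ht2 : 4 * K ^ p * A / c < t := lt_of_le_of_lt (le_max_left _ _) ht
  have ht1' : 1 ≤ t := by
    have : (1:ℕ) < t := by exact_mod_cast ht1
    omega
  have hk := key t ht1'
  rw [div_lt_iff₀ hcpos] at ht2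
  nlinarith

end Vale.Agent.Lib.P125
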