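import Vale.Agent.Lib.P125.Excursion

/-!
# Consequences of the sharp star inequality
-/

namespace Vale.Agent.Lib.P125

open Finset

variable {X : Type*} [NormedAddCommGroup X] [NormedSpace ℝ X]

omit [NormedSpace ℝ X] in
/-- Clarkson-type inequality forced by Markov type: for all `x 0, ..., x (n-1)`,
`∑ i, ∑ j, (‖x i + x j‖ ^ p + ‖x i - x j‖ ^ p) ≤ 4 * n * K ^ p * ∑ i, ‖x i‖ ^ p`. -/
theorem markov_clarkson_sharp {p K : ℝ} (hp : 0 < p) (hX : HasMarkovType X p K) (n : ℕ)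
    (x : Fin n → X) :
    ∑ i, ∑ j, (‖x i + x j‖ ^ p + ‖x i - x j‖ ^ p)
      ≤ 4 * (n : ℝ) * K ^ p * ∑ i, ‖x i‖ ^ p := by
  rcases Nat.eq_zero_or_pos n with hn | hn
  · subst hn; simp
  have : Nonempty (Fin n) := ⟨⟨0, hn⟩⟩
  have h := star_sharp hp hX (Fin n ⊕ Fin n) (Sum.elim x (fun i => - x i))
  simp only [Fintype.sum_sum_type, Sum.elim_inl, Sum.elim_inr, norm_neg, Fintype.card_sum,
    Fintype.card_fin, sub_neg_eq_add, Nat.cast_add] at h
  have e1 : ∀ i j : Fin n, ‖-x i - x j‖ = ‖x i + x j‖ := by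
    intro i j
    rw [← norm_neg]; congr 1; abel
  have e2 : ∀ i j : Fin n, ‖-x i + x j‖ = ‖x i - x j‖ := by
    intro i j
    rw [← norm_neg]; congr 1; abel
  simp only [e1, e2] at h
  set N := ∑ i, ‖x i‖ ^ p with hN
  have hS : ∑ i, ∑ j, (‖x i + x j‖ ^ p + ‖x i - x j‖ ^ p)
      = ∑ i, ∑ j, ‖x i + x j‖ ^ p + ∑ i, ∑ j, ‖x i - x j‖ ^ p := by
    simp only [Finset.sum_add_distrib]
  rw [hS]
  set S1 := ∑ i, ∑ j, ‖x i + x j‖ ^ p with hS1
  set S2 := ∑ i, ∑ j, ‖x i - x j‖ ^ p with hS2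
  simp only [Finset.sum_add_distrib] at h
  rw [← hS1, ← hS2] at h
  have hnpos : (0:ℝ) < n := by exact_mod_cast hn
  have h3 : 1 / ((n:ℝ) + n) * (S2 + S1 + (S1 + S2)) = (S1 + S2) / n := by
    field_simp
    ring
  rw [h3] at h
  rw [div_le_iff₀ hnpos] at h
  linarith

/-- Bernoulli lower bound for `(2 - ε) ^ p`. -/
theorem two_sub_rpow_ge {p ε : ℝ} (hp : 1 ≤ p) (h1 : ε ≤ 1) :
    (2:ℝ) ^ p - 2 ^ p * p * ε / 2 ≤ (2 - ε) ^ p := by
  have h := one_add_mul_self_le_rpow_one_add (s := -ε/2) (by linarith) hp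
  have e : (2 - ε) = 2 * (1 + -ε/2) := by ring
  rw [e, Real.mul_rpow (by norm_num) (by linarith)]
  have h2 : (0:ℝ) < 2 ^ p := by positivity
  nlinarith

/-- Splitting two terms off a signed sum of vectors of the unit ball. -/
theorem signed_sum_le (n : ℕ) (x : Fin n → X) (hx : ∀ i, ‖x i‖ ≤ 1) (σ : Fin n → ℝ)
    (hσ : ∀ i, σ i = 1 ∨ σ i = -1) (i j : Fin n) (hij : i ≠ j) :
    ‖∑ l, σ l • x l‖ ≤ ‖σ i • x i + σ j • x j‖ + ((n:ℝ) - 2) := by
  have hsub : ({i, j} : Finset (Fin n)) ⊆ univ := subset_univ _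
  have hsplit := Finset.sum_sdiff (f := fun l => σ l • x l) hsub
  rw [Finset.sum_pair hij] at hsplit
  rw [← hsplit]
  have hcard : ((univ \ {i, j} : Finset (Fin n)).card : ℝ) = (n:ℝ) - 2 := by
    have h1 := Finset.card_sdiff_add_card_eq_card hsub
    rw [Finset.card_pair hij, Finset.card_univ, Fintype.card_fin] at h1
    have h2 : (((univ \ {i, j} : Finset (Fin n)).card + 2 : ℕ) : ℝ) = (n:ℝ) := by
      exact_mod_cast h1
    push_cast at h2
    linarith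
  have hrest : ‖∑ l ∈ univ \ {i, j}, σ l • x l‖ ≤ (n:ℝ) - 2 := by
    calc ‖∑ l ∈ univ \ {i, j}, σ l • x l‖ ≤ ∑ l ∈ univ \ {i, j}, ‖σ l • x l‖ := norm_sum_le _ _
      _ ≤ ∑ l ∈ univ \ {i, j}, (1:ℝ) := by
          apply Finset.sum_le_sum
          intro l _
          rw [norm_smul]
          rcases hσ l with h | h <;> rw [h] <;> simp [hx l]
      _ = (n:ℝ) - 2 := by rw [Finset.sum_const, nsmul_eq_mul, mul_one, hcard]
  calc ‖∑ l ∈ univ \ {i, j}, σ l • x l + (σ i • x i + σ j • x j)‖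
      ≤ ‖∑ l ∈ univ \ {i, j}, σ l • x l‖ + ‖σ i • x i + σ j • x j‖ := norm_add_le _ _
    _ ≤ ‖σ i • x i + σ j • x j‖ + ((n:ℝ) - 2) := by linarith

/-- Parametric form: if `K ^ p < 2 ^ p * (2 n - 1) / (4 n)` then `X` is `J (n, ε)`-convex
for some `ε > 0`. -/
theorem jconvex_param_sharp {p K : ℝ} (hp : 1 < p) (hX : HasMarkovType X p K) (n : ℕ) (hn : 2 ≤ n)
    (hK : K ^ p < 2 ^ p * (2 * (n:ℝ) - 1) / (4 * n)) :
    ∃ ε : ℝ, 0 < ε ∧ ∀ x : Fin n → X, (∀ i, ‖x i‖ ≤ 1) →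
      ∃ k : Fin n, ‖∑ i, (if i ≤ k then x i else - x i)‖ ≤ n - ε := by
  have hn2 : (2:ℝ) ≤ n := by exact_mod_cast hn
  have hnpos : (0:ℝ) < n := by linarith
  have h2p : (0:ℝ) < 2 ^ p := by positivity
  have hp0 : (0:ℝ) < p := by linarith
  set c : ℝ := 4 * n * K ^ p - 2 ^ p with hcdef
  have hc : c < 2 * ((n:ℝ) - 1) * 2 ^ p := by
    have h1 : K ^ p * (4 * n) < (2 ^ p * (2 * (n:ℝ) - 1) / (4 * n)) * (4 * n) :=
      mul_lt_mul_of_pos_right hK (by positivity)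
    have h2 : (2 ^ p * (2 * (n:ℝ) - 1) / (4 * n)) * (4 * n)
        = 2 ^ p * (2 * (n:ℝ) - 1) := by
      field_simp
    rw [h2] at h1
    rw [hcdef]
    nlinarith
  set g : ℝ := 2 * ((n:ℝ) - 1) * 2 ^ p - c with hgdef
  have hg : 0 < g := by linarith
  have hden : 0 < 2 * ((n:ℝ) - 1) * 2 ^ p * p := by
    have : (0:ℝ) < (n:ℝ) - 1 := by linarith
    positivity
  set ε : ℝ := min 1 (g / (2 * ((n:ℝ) - 1) * 2 ^ p * p)) with hεdef
  have hε : 0 < ε := lt_min one_pos (div_pos hg hden)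
  have hε1 : ε ≤ 1 := min_le_left _ _
  have hε2 : ε ≤ g / (2 * ((n:ℝ) - 1) * 2 ^ p * p) := min_le_right _ _
  have hε3 : ((n:ℝ) - 1) * 2 ^ p * p * ε ≤ g / 2 := by
    rw [le_div_iff₀ hden] at hε2
    linarith
  have hpow := two_sub_rpow_ge hp.le hε1
  have hpowpos : 0 < (2 - ε) ^ p := Real.rpow_pos_of_pos (by linarith) _
  -- the key numerical inequality
  have hkey : c < 2 * ((n:ℝ) - 1) * (2 - ε) ^ p := by
    have : 2 * ((n:ℝ) - 1) * (2 ^ p - 2 ^ p * p * ε / 2) ≤ 2 * ((n:ℝ) - 1) * (2 - ε) ^ p := by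
      apply mul_le_mul_of_nonneg_left hpow
      linarith
    nlinarith
  refine ⟨ε, hε, ?_⟩
  intro x hx
  by_contra hcon
  push Not at hcon
  -- pairwise bounds
  have hlast : ∀ i : Fin n, i ≤ (⟨n - 1, by omega⟩ : Fin n) := by
    intro i
    rw [Fin.le_def]
    have := i.2
    simp only
    omega
  have hplus : ∀ i j : Fin n, i ≠ j → 2 - ε < ‖x i + x j‖ := by
    intro i j hij
    have h1 := hcon ⟨n - 1, by omega⟩
    have h2 := signed_sum_le n x hx (fun _ => 1) (fun _ => Or.inl rfl) i j hij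
    simp only [one_smul] at h2
    have h3 : ∑ l, (if l ≤ (⟨n - 1, by omega⟩ : Fin n) then x l else - x l) = ∑ l, x l := by
      apply Finset.sum_congr rfl
      intro l _
      rw [if_pos (hlast l)]
    rw [h3] at h1
    linarith
  have hminus_lt : ∀ i j : Fin n, i < j → 2 - ε < ‖x i - x j‖ := by
    intro i j hij
    have h1 := hcon i
    have h2 := signed_sum_le n x hx (fun l => if l ≤ i then 1 else -1)
      (fun l => by by_cases h : l ≤ i <;> simp [h]) i j (ne_of_lt hij)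
    have h3 : ∑ l, (if l ≤ i then x l else - x l)
        = ∑ l, (if l ≤ i then (1:ℝ) else -1) • x l := by
      apply Finset.sum_congr rfl
      intro l _
      by_cases h : l ≤ i <;> simp [h]
    rw [h3] at h1
    have h4 : ¬ j ≤ i := not_le.mpr hij
    simp only [le_refl, if_true, h4, if_false, one_smul, neg_smul] at h2
    rw [← sub_eq_add_neg] at h2
    linarith
  have hminus : ∀ i j : Fin n, i ≠ j → 2 - ε < ‖x i - x j‖ := by
    intro i j hij
    rcases lt_or_gt_of_ne hij with h | h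
    · exact hminus_lt i j h
    · rw [norm_sub_rev]; exact hminus_lt j i h
  -- apply the Clarkson-type inequality
  have hT := markov_clarkson_sharp hp0 hX n x
  set N : ℝ := ∑ i, ‖x i‖ ^ p with hN
  have hN0 : 0 ≤ N := Finset.sum_nonneg (fun i _ => Real.rpow_nonneg (norm_nonneg _) _)
  have hNn : N ≤ n := by
    calc N ≤ ∑ _i : Fin n, (1:ℝ) := by
          apply Finset.sum_le_sum
          intro i _
          exact Real.rpow_le_one (norm_nonneg _) (hx i) hp0.le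
      _ = n := by simp
  have hrow : ∀ i : Fin n, 2 ^ p * ‖x i‖ ^ p + ((n:ℝ) - 1) * (2 * (2 - ε) ^ p)
      ≤ ∑ j, (‖x i + x j‖ ^ p + ‖x i - x j‖ ^ p) := by
    intro i
    rw [← Finset.add_sum_erase univ _ (mem_univ i)]
    have hd : ‖x i + x i‖ ^ p + ‖x i - x i‖ ^ p = 2 ^ p * ‖x i‖ ^ p := by
      rw [sub_self, norm_zero, Real.zero_rpow hp0.ne', add_zero, ← two_smul ℝ (x i), norm_smul,
        Real.mul_rpow (norm_nonneg _) (norm_nonneg _)]
      simp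
    rw [hd]
    have hcard : ((univ.erase i : Finset (Fin n)).card : ℝ) = (n:ℝ) - 1 := by
      rw [Finset.card_erase_of_mem (mem_univ i), Finset.card_univ, Fintype.card_fin]
      have : 1 ≤ n := by omega
      push_cast [Nat.cast_sub this]
      ring
    have hle : ((univ.erase i : Finset (Fin n)).card : ℝ) * (2 * (2 - ε) ^ p)
        ≤ ∑ j ∈ univ.erase i, (‖x i + x j‖ ^ p + ‖x i - x j‖ ^ p) := by
      rw [← nsmul_eq_mul]
      apply Finset.card_nsmul_le_sum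
      intro j hj
      have hji : i ≠ j := (Finset.ne_of_mem_erase hj).symm
      have ha := Real.rpow_le_rpow (by linarith) (hplus i j hji).le hp0.le
      have hb := Real.rpow_le_rpow (by linarith) (hminus i j hji).le hp0.le
      linarith
    rw [hcard] at hle
    linarith
  have hsum : 2 ^ p * N + (n:ℝ) * (((n:ℝ) - 1) * (2 * (2 - ε) ^ p))
      ≤ ∑ i, ∑ j, (‖x i + x j‖ ^ p + ‖x i - x j‖ ^ p) := by
    have := Finset.sum_le_sum (fun i (_ : i ∈ (univ : Finset (Fin n))) => hrow i)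
    rw [Finset.sum_add_distrib, ← Finset.mul_sum, Finset.sum_const, Finset.card_univ,
      Fintype.card_fin, nsmul_eq_mul] at this
    exact this
  -- combine
  have hfin : (n:ℝ) * (((n:ℝ) - 1) * (2 * (2 - ε) ^ p)) ≤ c * N := by
    rw [hcdef]
    linarith
  rcases le_or_gt c 0 with hc0 | hc0
  · have h1 : c * N ≤ 0 := mul_nonpos_of_nonpos_of_nonneg hc0 hN0
    have h2 : 0 < (n:ℝ) * (((n:ℝ) - 1) * (2 * (2 - ε) ^ p)) := by
      have : (0:ℝ) < (n:ℝ) - 1 := by linarith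
      positivity
    linarith
  · have h1 : c * N ≤ c * n := mul_le_mul_of_nonneg_left hNn hc0.le
    have h2 : c * n < (2 * ((n:ℝ) - 1) * (2 - ε) ^ p) * n := mul_lt_mul_of_pos_right hkey hnpos
    nlinarith


/-- If `K ^ p < 2 ^ (p - 1)` then `X` is J-convex. -/
theorem jconvex_sharp {p K : ℝ} (hp : 1 < p) (hX : HasMarkovType X p K)
    (hK : K ^ p < 2 ^ (p - 1)) :
    ∃ (n : ℕ) (ε : ℝ), 2 ≤ n ∧ 0 < ε ∧ ∀ x : Fin n → X, (∀ i, ‖x i‖ ≤ 1) →
      ∃ k : Fin n, ‖∑ i, (if i ≤ k then x i else - x i)‖ ≤ n - ε := by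
  have h2p : (0:ℝ) < 2 ^ p := by positivity
  have hsub : (2:ℝ) ^ (p - 1) = 2 ^ p / 2 := by
    rw [Real.rpow_sub_one (by norm_num)]
  rw [hsub] at hK
  set γ : ℝ := 2 ^ p / 2 - K ^ p with hγ
  have hγpos : 0 < γ := by linarith
  obtain ⟨m, hm⟩ := exists_nat_gt ((2:ℝ) ^ p / (4 * γ))
  set n : ℕ := max m 2 with hn
  have hn2 : 2 ≤ n := le_max_right _ _
  have hnm : (m:ℝ) ≤ n := by exact_mod_cast le_max_left m 2
  have hnpos : (0:ℝ) < n := by
    have : (2:ℝ) ≤ n := by exact_mod_cast hn2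
    linarith
  have h1 : (2:ℝ) ^ p / (4 * γ) < n := lt_of_lt_of_le hm hnm
  have h2 : (2:ℝ) ^ p / (4 * n) < γ := by
    rw [div_lt_iff₀ (by positivity)] at h1 ⊢
    nlinarith
  have h3 : (2:ℝ) ^ p * (2 * (n:ℝ) - 1) / (4 * n) = 2 ^ p / 2 - 2 ^ p / (4 * n) := by
    field_simp
    ring
  obtain ⟨ε, hε, h⟩ := jconvex_param_sharp hp hX n hn2 (by rw [h3]; linarith)
  exact ⟨n, ε, hn2, hε, h⟩

/-- If `K ^ p < 3 * 2 ^ p / 8` then `X` is uniformly non-square. -/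
theorem nonsquare_sharp {p K : ℝ} (hp : 1 < p) (hX : HasMarkovType X p K)
    (hK : K ^ p < 3 * 2 ^ p / 8) :
    ∃ δ : ℝ, 0 < δ ∧ ∀ x y : X, ‖x‖ ≤ 1 → ‖y‖ ≤ 1 → ‖x + y‖ ≤ 2 - δ ∨ ‖x - y‖ ≤ 2 - δ := by
  have hK' : K ^ p < 2 ^ p * (2 * ((2:ℕ):ℝ) - 1) / (4 * ((2:ℕ):ℝ)) := by
    have : (2:ℝ) ^ p * (2 * ((2:ℕ):ℝ) - 1) / (4 * ((2:ℕ):ℝ)) = 3 * 2 ^ p / 8 := by
      push_cast
      ring
    rw [this]; exact hK
  obtain ⟨ε, hε, h⟩ := jconvex_param_sharp hp hX 2 le_rfl hK'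
  refine ⟨ε, hε, ?_⟩
  intro x y hx hy
  obtain ⟨k, hk⟩ := h ![x, y] (by
    intro i
    fin_cases i
    · simpa using hx
    · simpa using hy)
  rw [Fin.sum_univ_two] at hk
  fin_cases k
  · right
    simp only [Fin.zero_eta, Fin.isValue, le_refl, if_true, Matrix.cons_val_zero,
      Matrix.cons_val_one] at hk
    have h10 : ¬ ((1 : Fin 2) ≤ 0) := by decide
    rw [if_neg h10, ← sub_eq_add_neg] at hk
    have : ((2:ℕ):ℝ) = 2 := by norm_num
    rw [this] at hk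
    exact hk
  · left
    simp only [Fin.mk_one, Fin.isValue, le_refl, if_true, Matrix.cons_val_zero,
      Matrix.cons_val_one] at hk
    have h01 : ((0 : Fin 2) ≤ 1) := by decide
    rw [if_pos h01] at hk
    have : ((2:ℕ):ℝ) = 2 := by norm_num
    rw [this] at hk
    exact hk

/-- Markov type 2 with constant `K` bounds the von Neumann-Jordan constant by `2 K ^ 2 - 1`. -/
theorem nj_sharp {K : ℝ} (hX : HasMarkovType X 2 K) (x y : X) :
    ‖x + y‖ ^ 2 + ‖x - y‖ ^ 2 ≤ (2 * K ^ 2 - 1) * (2 * (‖x‖ ^ 2 + ‖y‖ ^ 2)) := by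
  have h := markov_clarkson_sharp (by norm_num : (0:ℝ) < 2) hX 2 ![x, y]
  simp only [Fin.sum_univ_two, Matrix.cons_val_zero, Matrix.cons_val_one, Real.rpow_two,
    sub_self, norm_zero] at h
  have e1 : ‖x + x‖ = 2 * ‖x‖ := by
    rw [← two_smul ℝ x, norm_smul]; simp
  have e2 : ‖y + y‖ = 2 * ‖y‖ := by
    rw [← two_smul ℝ y, norm_smul]; simp
  have e3 : ‖y + x‖ = ‖x + y‖ := by rw [add_comm]
  have e4 : ‖y - x‖ = ‖x - y‖ := norm_sub_rev _ _
  rw [e1, e2, e3, e4] at h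
  push_cast at h
  nlinarith

/-- Markov type 2 with constant `1` forces the parallelogram law. -/
theorem parallelogram_sharp (hX : HasMarkovType X 2 1) (x y : X) :
    ‖x + y‖ ^ 2 + ‖x - y‖ ^ 2 = 2 * (‖x‖ ^ 2 + ‖y‖ ^ 2) := by
  have h1 := nj_sharp hX x y
  have h2 := nj_sharp hX (x + y) (x - y)
  have e1 : x + y + (x - y) = (2:ℝ) • x := by rw [two_smul]; abel
  have e2 : x + y - (x - y) = (2:ℝ) • y := by rw [two_smul]; abel
  rw [e1, e2, norm_smul, norm_smul] at h2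
  simp only [Real.norm_ofNat] at h2
  nlinarith

/-- If `0 < K < 2 ^ (1 - 1 / p)` then `X` is J-convex. -/
theorem jconvex_of_lt {p K : ℝ} (hp : 1 < p) (hK : 0 < K) (hX : HasMarkovType X p K)
    (hsmall : K < 2 ^ (1 - 1 / p)) :
    ∃ (n : ℕ) (ε : ℝ), 2 ≤ n ∧ 0 < ε ∧ ∀ x : Fin n → X, (∀ i, ‖x i‖ ≤ 1) →
      ∃ k : Fin n, ‖∑ i, (if i ≤ k then x i else - x i)‖ ≤ n - ε := by
  have hp0 : 0 < p := by linarith
  have h1 : K ^ p < ((2:ℝ) ^ (1 - 1 / p)) ^ p := Real.rpow_lt_rpow hK.le hsmall hp0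
  have h2 : ((2:ℝ) ^ (1 - 1 / p)) ^ p = 2 ^ (p - 1) := by
    rw [← Real.rpow_mul (by norm_num)]
    congr 1
    field_simp
  rw [h2] at h1
  exact jconvex_sharp hp hX h1

end Vale.Agent.Lib.P125
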